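import Mathlib

/-!
Polar functions on the plane (row POL of P159 D.LOW): `pol η u z = η (log |z|) * u (arg z)` for
smooth `η` vanishing outside `[a, b]` and smooth `u` vanishing near `±π`: smoothness, compact
support, partial derivatives, change of variables, Dirichlet energy.
-/

open Filter Topology MeasureTheory Real

namespace Vale.Agent.P159.T1.D.H634

/-- the plane as complex numbers -/
noncomputable def tc (z : ℝ × ℝ) : ℂ := ⟨z.1, z.2⟩

/-- logarithm of the modulus -/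
noncomputable def lr (z : ℝ × ℝ) : ℝ := Real.log (Real.sqrt (z.1 ^ 2 + z.2 ^ 2))

/-- the argument in `(-π, π]` -/
noncomputable def ar (z : ℝ × ℝ) : ℝ := Complex.arg (tc z)

/-- polar function -/
noncomputable def pol (η u : ℝ → ℝ) (z : ℝ × ℝ) : ℝ :=
  if z = 0 then 0 else η (lr z) * u (ar z)

/-- the cut plane -/
def cut : Set (ℝ × ℝ) := {z | 0 < z.1 ∨ z.2 ≠ 0}

theorem tc_eq (z : ℝ × ℝ) : tc z = Complex.equivRealProdCLM.symm z := by
  apply Complex.ext <;> simp [tc]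

theorem tc_mem {z : ℝ × ℝ} (h : z ∈ cut) : tc z ∈ Complex.slitPlane := by
  rw [Complex.mem_slitPlane_iff]; exact h

theorem tc_zero {z : ℝ × ℝ} : tc z = 0 ↔ z = 0 := by
  rw [tc_eq]; simp

theorem norm_tc (z : ℝ × ℝ) : ‖tc z‖ = Real.sqrt (z.1 ^ 2 + z.2 ^ 2) := by
  rw [Complex.norm_eq_sqrt_sq_add_sq]; rfl

theorem lr_eq (z : ℝ × ℝ) : lr z = (Complex.log (tc z)).re := by
  rw [Complex.log_re, norm_tc]; rfl

theorem ar_eq (z : ℝ × ℝ) : ar z = (Complex.log (tc z)).im := by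
  rw [Complex.log_im]; rfl

theorem isOpen_cut : IsOpen cut := by
  have h : cut = (fun z : ℝ × ℝ => z.1) ⁻¹' Set.Ioi 0 ∪ (fun z : ℝ × ℝ => z.2) ⁻¹' {0}ᶜ := by
    ext z; simp [cut]
  rw [h]
  exact (isOpen_Ioi.preimage continuous_fst).union (isOpen_compl_singleton.preimage continuous_snd)

theorem ne_zero_of_cut {z : ℝ × ℝ} (h : z ∈ cut) : z ≠ 0 := by
  rintro rfl
  simp [cut] at h

theorem contDiffAt_log_tc {z : ℝ × ℝ} (h : z ∈ cut) {n : WithTop ℕ∞} :
    ContDiffAt ℝ n (fun z : ℝ × ℝ => Complex.log (tc z)) z := by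
  have h1 : ContDiffAt ℝ n Complex.log (tc z) :=
    (Complex.contDiffAt_log (tc_mem h)).restrict_scalars ℝ
  have h2 : ContDiffAt ℝ n tc z := by
    have : tc = fun z => Complex.equivRealProdCLM.symm z := funext tc_eq
    rw [this]
    exact Complex.equivRealProdCLM.symm.contDiff.contDiffAt
  exact h1.comp z h2

theorem contDiffAt_lr {z : ℝ × ℝ} (h : z ∈ cut) {n : WithTop ℕ∞} : ContDiffAt ℝ n lr z := by
  have : lr = fun z => Complex.reCLM (Complex.log (tc z)) := funext fun z => lr_eq z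
  rw [this]
  exact Complex.reCLM.contDiff.contDiffAt.comp z (contDiffAt_log_tc h)

theorem contDiffAt_ar {z : ℝ × ℝ} (h : z ∈ cut) {n : WithTop ℕ∞} : ContDiffAt ℝ n ar z := by
  have : ar = fun z => Complex.imCLM (Complex.log (tc z)) := funext fun z => ar_eq z
  rw [this]
  exact Complex.imCLM.contDiff.contDiffAt.comp z (contDiffAt_log_tc h)

theorem hasStrictFDerivAt_log_tc {z : ℝ × ℝ} (h : z ∈ cut) :
    HasStrictFDerivAt (fun z : ℝ × ℝ => Complex.log (tc z))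
      (((ContinuousLinearMap.toSpanSingleton ℂ ((tc z)⁻¹)).restrictScalars ℝ).comp
        (Complex.equivRealProdCLM.symm : ℝ × ℝ →L[ℝ] ℂ)) z := by
  have h1 := ((Complex.hasStrictDerivAt_log (tc_mem h)).hasStrictFDerivAt).restrictScalars ℝ
  have h2 : HasStrictFDerivAt tc (Complex.equivRealProdCLM.symm : ℝ × ℝ →L[ℝ] ℂ) z := by
    have : tc = fun z => Complex.equivRealProdCLM.symm z := funext tc_eq
    rw [this]
    exact Complex.equivRealProdCLM.symm.hasStrictFDerivAt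
  exact h1.comp z h2

/-- the derivative of the logarithm of the modulus -/
theorem hasStrictFDerivAt_lr {z : ℝ × ℝ} (h : z ∈ cut) :
    HasStrictFDerivAt lr ((z.1 / (z.1 ^ 2 + z.2 ^ 2)) • ContinuousLinearMap.fst ℝ ℝ ℝ +
      (z.2 / (z.1 ^ 2 + z.2 ^ 2)) • ContinuousLinearMap.snd ℝ ℝ ℝ) z := by
  have : lr = fun z => Complex.reCLM (Complex.log (tc z)) := funext fun z => lr_eq z
  rw [this]
  have h1 := Complex.reCLM.hasStrictFDerivAt.comp z (hasStrictFDerivAt_log_tc h)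
  refine h1.congr_fderiv ?_
  have hn : z.1 * z.1 + z.2 * z.2 = z.1 ^ 2 + z.2 ^ 2 := by ring
  ext <;> simp [tc, Complex.inv_re, Complex.inv_im, Complex.normSq_apply, hn, neg_div]

/-- the derivative of the argument -/
theorem hasStrictFDerivAt_ar {z : ℝ × ℝ} (h : z ∈ cut) :
    HasStrictFDerivAt ar ((-z.2 / (z.1 ^ 2 + z.2 ^ 2)) • ContinuousLinearMap.fst ℝ ℝ ℝ +
      (z.1 / (z.1 ^ 2 + z.2 ^ 2)) • ContinuousLinearMap.snd ℝ ℝ ℝ) z := by
  have : ar = fun z => Complex.imCLM (Complex.log (tc z)) := funext fun z => ar_eq z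
  rw [this]
  have h1 := Complex.imCLM.hasStrictFDerivAt.comp z (hasStrictFDerivAt_log_tc h)
  refine h1.congr_fderiv ?_
  have hn : z.1 * z.1 + z.2 * z.2 = z.1 ^ 2 + z.2 ^ 2 := by ring
  ext <;> simp [tc, Complex.inv_re, Complex.inv_im, Complex.normSq_apply, hn]

theorem hasFDerivAt_lr {z : ℝ × ℝ} (h : z ∈ cut) :
    HasFDerivAt lr ((z.1 / (z.1 ^ 2 + z.2 ^ 2)) • ContinuousLinearMap.fst ℝ ℝ ℝ +
      (z.2 / (z.1 ^ 2 + z.2 ^ 2)) • ContinuousLinearMap.snd ℝ ℝ ℝ) z :=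
  (hasStrictFDerivAt_lr h).hasFDerivAt

theorem hasFDerivAt_ar {z : ℝ × ℝ} (h : z ∈ cut) :
    HasFDerivAt ar ((-z.2 / (z.1 ^ 2 + z.2 ^ 2)) • ContinuousLinearMap.fst ℝ ℝ ℝ +
      (z.1 / (z.1 ^ 2 + z.2 ^ 2)) • ContinuousLinearMap.snd ℝ ℝ ℝ) z :=
  (hasStrictFDerivAt_ar h).hasFDerivAt

/-! ### smoothness of polar functions -/

/-- `u` vanishes near `±π` -/
def VanE (κ : ℝ) (u : ℝ → ℝ) : Prop := ∀ θ, π - κ ≤ |θ| → u θ = 0

/-- `η` vanishes outside `[a, b]` -/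
def VanR (a b : ℝ) (η : ℝ → ℝ) : Prop := ∀ t, t ≤ a ∨ b ≤ t → η t = 0

theorem not_cut {z : ℝ × ℝ} (h : z ∉ cut) : z.1 ≤ 0 ∧ z.2 = 0 := by
  simpa [cut, not_or] using h

/-- near a point of the negative axis the argument is near `±π` -/
theorem ar_near {z : ℝ × ℝ} (h1 : z.1 < 0) (h2 : z.2 = 0) {κ : ℝ} (hκ : 0 < κ) :
    ∀ᶠ w in 𝓝 z, π - κ ≤ |ar w| := by
  wlog hκ' : κ < π generalizing κ
  · filter_upwards [this (κ := min κ (π / 2)) (lt_min hκ (by positivity))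
      (lt_of_le_of_lt (min_le_right _ _) (by linarith [Real.pi_pos]))] with w hw
    exact (sub_le_sub_left (min_le_left _ _) _).trans hw
  have hc : ContinuousAt (fun w : ℝ × ℝ => w.1 / Real.sqrt (w.1 ^ 2 + w.2 ^ 2)) z := by
    have hs : Real.sqrt (z.1 ^ 2 + z.2 ^ 2) ≠ 0 := by
      rw [h2]
      have : 0 < z.1 ^ 2 + (0 : ℝ) ^ 2 := by nlinarith
      exact (Real.sqrt_pos.2 this).ne'
    exact ContinuousAt.div (by fun_prop) (by fun_prop) hs
  have hv : z.1 / Real.sqrt (z.1 ^ 2 + z.2 ^ 2) = -1 := by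
    rw [h2]
    have : Real.sqrt (z.1 ^ 2 + (0 : ℝ) ^ 2) = -z.1 := by
      rw [zero_pow two_ne_zero, add_zero, Real.sqrt_sq_eq_abs, abs_of_neg h1]
    rw [this, div_neg, div_self h1.ne]
  have hlt : (-1 : ℝ) < Real.cos (π - κ) := by
    rw [Real.cos_pi_sub]
    have : Real.cos κ < 1 := by
      have := Real.cos_lt_cos_of_nonneg_of_le_pi le_rfl hκ'.le hκ
      simpa using this
    linarith
  have h3 : ∀ᶠ w in 𝓝 z, w.1 / Real.sqrt (w.1 ^ 2 + w.2 ^ 2) < Real.cos (π - κ) :=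
    hc.eventually_lt continuousAt_const (by rw [hv]; exact hlt)
  have h4 : ∀ᶠ w : ℝ × ℝ in 𝓝 z, w.1 < 0 :=
    (continuous_fst.continuousAt).eventually_lt continuousAt_const h1
  filter_upwards [h3, h4] with w hw hw'
  by_contra hlt'
  push Not at hlt'
  have hw0 : tc w ≠ 0 := by
    intro h0
    rw [tc_zero] at h0
    rw [h0] at hw'
    simp at hw'
  have e1 : Real.cos (ar w) = w.1 / Real.sqrt (w.1 ^ 2 + w.2 ^ 2) := by
    rw [ar, Complex.cos_arg hw0, norm_tc]; rfl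
  have e2 : Real.cos (π - κ) ≤ Real.cos |ar w| :=
    Real.cos_le_cos_of_nonneg_of_le_pi (abs_nonneg _) (by linarith) hlt'.le
  rw [Real.cos_abs, e1] at e2
  linarith

/-- near the origin the logarithm of the modulus is small -/
theorem lr_near (a : ℝ) : ∀ᶠ w in 𝓝 (0 : ℝ × ℝ), w ≠ 0 → lr w ≤ a := by
  have hc : ContinuousAt (fun w : ℝ × ℝ => Real.sqrt (w.1 ^ 2 + w.2 ^ 2)) 0 := by fun_prop
  have h3 : ∀ᶠ w : ℝ × ℝ in 𝓝 0, Real.sqrt (w.1 ^ 2 + w.2 ^ 2) < Real.exp a :=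
    hc.eventually_lt continuousAt_const (by simpa using Real.exp_pos a)
  filter_upwards [h3] with w hw h0
  have hp : 0 < Real.sqrt (w.1 ^ 2 + w.2 ^ 2) := by
    rw [← norm_tc]; exact norm_pos_iff.2 (by rwa [Ne, tc_zero])
  rw [lr, ← Real.log_exp a]
  exact (Real.log_lt_log hp hw).le

/-- a polar function vanishes near a point outside the cut plane -/
theorem pol_near {η u : ℝ → ℝ} {κ a b : ℝ} (hκ : 0 < κ) (hu : VanE κ u) (hη : VanR a b η)
    {z : ℝ × ℝ} (h : z ∉ cut) : ∀ᶠ w in 𝓝 z, pol η u w = 0 := by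
  obtain ⟨h1, h2⟩ := not_cut h
  rcases h1.lt_or_eq with h1 | h1
  · filter_upwards [ar_near h1 h2 hκ] with w hw
    simp only [pol]
    split_ifs
    · rfl
    · rw [hu _ hw, mul_zero]
  · have hz : z = 0 := Prod.ext h1 h2
    rw [hz]
    filter_upwards [lr_near a] with w hw
    simp only [pol]
    split_ifs with h0
    · rfl
    · rw [hη _ (Or.inl (hw h0)), zero_mul]

theorem pol_eq_of_cut (η u : ℝ → ℝ) {z : ℝ × ℝ} (h : z ∈ cut) :
    pol η u =ᶠ[𝓝 z] fun w => η (lr w) * u (ar w) := by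
  filter_upwards [isOpen_cut.mem_nhds h] with w hw
  rw [pol, if_neg (ne_zero_of_cut hw)]

theorem contDiff_pol {η u : ℝ → ℝ} {κ a b : ℝ} (hκ : 0 < κ) (hu : VanE κ u) (hη : VanR a b η)
    {n : WithTop ℕ∞} (cη : ContDiff ℝ n η) (cu : ContDiff ℝ n u) : ContDiff ℝ n (pol η u) := by
  rw [contDiff_iff_contDiffAt]
  intro z
  by_cases h : z ∈ cut
  · refine ContDiffAt.congr_of_eventuallyEq ?_ (pol_eq_of_cut η u h)
    exact (cη.contDiffAt.comp z (contDiffAt_lr h)).mul (cu.contDiffAt.comp z (contDiffAt_ar h))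
  · refine (contDiffAt_const (c := (0 : ℝ))).congr_of_eventuallyEq ?_
    exact pol_near hκ hu hη h

theorem pol_zero_far {η u : ℝ → ℝ} {a b : ℝ} (hη : VanR a b η) {z : ℝ × ℝ}
    (h : Real.exp b ≤ Real.sqrt (z.1 ^ 2 + z.2 ^ 2)) : pol η u z = 0 := by
  rw [pol]
  split_ifs
  · rfl
  · rw [hη _ (Or.inr _), zero_mul]
    rw [lr, ← Real.log_exp b]
    exact Real.log_le_log (Real.exp_pos b) h

theorem abs_le_sqrt_fst (z : ℝ × ℝ) : |z.1| ≤ Real.sqrt (z.1 ^ 2 + z.2 ^ 2) := by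
  rw [← Real.sqrt_sq_eq_abs]; exact Real.sqrt_le_sqrt (by nlinarith [sq_nonneg z.2])

theorem abs_le_sqrt_snd (z : ℝ × ℝ) : |z.2| ≤ Real.sqrt (z.1 ^ 2 + z.2 ^ 2) := by
  rw [← Real.sqrt_sq_eq_abs]; exact Real.sqrt_le_sqrt (by nlinarith [sq_nonneg z.1])

theorem norm_le_sqrt (z : ℝ × ℝ) : ‖z‖ ≤ Real.sqrt (z.1 ^ 2 + z.2 ^ 2) := by
  rw [Prod.norm_def, Real.norm_eq_abs, Real.norm_eq_abs]
  exact max_le (abs_le_sqrt_fst z) (abs_le_sqrt_snd z)

theorem hasCompactSupport_pol {η u : ℝ → ℝ} {a b : ℝ} (hη : VanR a b η) :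
    HasCompactSupport (pol η u) := by
  refine HasCompactSupport.intro (isCompact_closedBall (0 : ℝ × ℝ) (Real.exp b)) fun z hz => ?_
  refine pol_zero_far hη ?_
  rw [mem_closedBall_zero_iff, not_le] at hz
  exact hz.le.trans (norm_le_sqrt z)

/-! ### partial derivatives -/

theorem fderiv_pol {η u : ℝ → ℝ} {κ a b : ℝ} (hκ : 0 < κ) (hu : VanE κ u) (hη : VanR a b η)
    (cη : Differentiable ℝ η) (cu : Differentiable ℝ u) (z v : ℝ × ℝ) :
    fderiv ℝ (pol η u) z v =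
      (deriv η (lr z) * u (ar z) * (z.1 * v.1 + z.2 * v.2) +
        η (lr z) * deriv u (ar z) * (z.1 * v.2 - z.2 * v.1)) / (z.1 ^ 2 + z.2 ^ 2) := by
  by_cases h : z ∈ cut
  · rw [(pol_eq_of_cut η u h).fderiv_eq]
    have h1 : HasFDerivAt (fun w => η (lr w)) _ z :=
      (cη (lr z)).hasDerivAt.comp_hasFDerivAt z (hasFDerivAt_lr h)
    have h2 : HasFDerivAt (fun w => u (ar w)) _ z :=
      (cu (ar z)).hasDerivAt.comp_hasFDerivAt z (hasFDerivAt_ar h)
    have h3 : HasFDerivAt (fun w => η (lr w) * u (ar w)) _ z := h1.mul h2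
    rw [h3.fderiv]
    simp
    ring
  · rw [show fderiv ℝ (pol η u) z = 0 from ?_]
    · obtain ⟨h1, h2⟩ := not_cut h
      rcases h1.lt_or_eq with h1 | h1
      · have e : |ar z| = π := by
          have : tc z = ((z.1 : ℝ) : ℂ) := by apply Complex.ext <;> simp [tc, h2]
          rw [ar, this, Complex.arg_ofReal_of_neg h1, abs_of_pos Real.pi_pos]
        have e0 : u (ar z) = 0 := hu _ (by rw [e]; linarith)
        have e1 : deriv u (ar z) = 0 := by
          have : u =ᶠ[𝓝 (ar z)] fun _ => 0 := by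
            have : ∀ᶠ t in 𝓝 (ar z), π - κ < |t| :=
              continuousAt_const.eventually_lt continuous_abs.continuousAt (by rw [e]; linarith)
            filter_upwards [this] with t ht using hu _ ht.le
          rw [this.deriv_eq, deriv_const]
        simp [e0, e1]
      · simp [h1, h2]
    · have : pol η u =ᶠ[𝓝 z] fun _ => 0 := pol_near hκ hu hη h
      rw [this.fderiv_eq]
      simp

end Vale.Agent.P159.T1.D.H634
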