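import Vale.Agent.P159.T1.D.H634.Pol
import Vale.Agent.P159.T1.D.Stmts

/-!
Row POL: change of variables to logarithmic polar coordinates and the Dirichlet energy.
-/

open Filter Topology MeasureTheory Real

namespace Vale.Agent.P159.T1.D.H634

/-- logarithmic polar coordinates -/
noncomputable def lp (z : ℝ × ℝ) : ℝ × ℝ := (lr z, ar z)

/-- the derivative of `lp` on the cut plane -/
noncomputable def lpD (z : ℝ × ℝ) : ℝ × ℝ →L[ℝ] ℝ × ℝ :=
  ((z.1 / (z.1 ^ 2 + z.2 ^ 2)) • ContinuousLinearMap.fst ℝ ℝ ℝ +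
      (z.2 / (z.1 ^ 2 + z.2 ^ 2)) • ContinuousLinearMap.snd ℝ ℝ ℝ).prod
    ((-z.2 / (z.1 ^ 2 + z.2 ^ 2)) • ContinuousLinearMap.fst ℝ ℝ ℝ +
      (z.1 / (z.1 ^ 2 + z.2 ^ 2)) • ContinuousLinearMap.snd ℝ ℝ ℝ)

theorem hasFDerivAt_lp {z : ℝ × ℝ} (h : z ∈ cut) : HasFDerivAt lp (lpD z) z :=
  (hasFDerivAt_lr h).prodMk (hasFDerivAt_ar h)

theorem sq_pos {z : ℝ × ℝ} (h : z ≠ 0) : 0 < z.1 ^ 2 + z.2 ^ 2 := by
  by_contra hlt
  apply h
  have h1 : z.1 = 0 := by nlinarith [sq_nonneg z.1, sq_nonneg z.2]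
  have h2 : z.2 = 0 := by nlinarith [sq_nonneg z.1, sq_nonneg z.2]
  exact Prod.ext h1 h2

theorem det_lpD {z : ℝ × ℝ} (h : z ≠ 0) : (lpD z).det = 1 / (z.1 ^ 2 + z.2 ^ 2) := by
  have hp := (sq_pos h).ne'
  have e : (lpD z : ℝ × ℝ →ₗ[ℝ] ℝ × ℝ) =
      (Matrix.toLin (Module.Basis.finTwoProd ℝ) (Module.Basis.finTwoProd ℝ))
        !![z.1 / (z.1 ^ 2 + z.2 ^ 2), z.2 / (z.1 ^ 2 + z.2 ^ 2);
          -z.2 / (z.1 ^ 2 + z.2 ^ 2), z.1 / (z.1 ^ 2 + z.2 ^ 2)] := by
    apply LinearMap.ext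
    intro v
    rw [Matrix.toLin_finTwoProd_apply]
    simp [lpD]
  rw [ContinuousLinearMap.det, e, LinearMap.det_toLin, Matrix.det_fin_two_of]
  field_simp
  ring

theorem injOn_lp : Set.InjOn lp cut := by
  intro z hz w hw h
  have h1 : Complex.log (tc z) = Complex.log (tc w) := by
    apply Complex.ext
    · rw [← lr_eq, ← lr_eq]; exact congrArg Prod.fst h
    · rw [← ar_eq, ← ar_eq]; exact congrArg Prod.snd h
  have h2 : tc z = tc w := by
    rw [← Complex.exp_log (Complex.slitPlane_ne_zero (tc_mem hz)), h1,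
      Complex.exp_log (Complex.slitPlane_ne_zero (tc_mem hw))]
  rw [tc_eq, tc_eq] at h2
  exact Complex.equivRealProdCLM.symm.injective h2

theorem image_lp : lp '' cut = (Set.univ : Set ℝ) ×ˢ Set.Ioo (-π) π := by
  ext w
  constructor
  · rintro ⟨z, hz, rfl⟩
    refine ⟨Set.mem_univ _, Complex.neg_pi_lt_arg _, ?_⟩
    exact lt_of_le_of_ne (Complex.arg_le_pi _) (Complex.slitPlane_arg_ne_pi (tc_mem hz))
  · rintro ⟨-, h1, h2⟩
    set c : ℂ := Complex.exp (⟨w.1, w.2⟩ : ℂ) with hc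
    have hlog : Complex.log c = ⟨w.1, w.2⟩ := Complex.log_exp h1 h2.le
    have hne : c ≠ 0 := Complex.exp_ne_zero _
    have hs : c ∈ Complex.slitPlane := by
      rw [Complex.mem_slitPlane_iff_arg]
      refine ⟨?_, hne⟩
      rw [← Complex.log_im, hlog]
      exact h2.ne
    have htc : tc (c.re, c.im) = c := by apply Complex.ext <;> rfl
    refine ⟨(c.re, c.im), ?_, ?_⟩
    · rw [Complex.mem_slitPlane_iff] at hs; exact hs
    · rw [lp, lr_eq, ar_eq, htc, hlog]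

theorem ae_cut : ∀ᵐ z : ℝ × ℝ, z ∈ cut := by
  have h : (cutᶜ : Set (ℝ × ℝ)) ⊆ (Set.univ : Set ℝ) ×ˢ {(0 : ℝ)} := by
    intro z hz
    exact ⟨Set.mem_univ _, (not_cut hz).2⟩
  rw [ae_iff]
  refine measure_mono_null h ?_
  rw [Measure.volume_eq_prod, Measure.prod_prod]
  simp

/-- change of variables: no integrability hypothesis -/
theorem integral_lp (F : ℝ × ℝ → ℝ) :
    ∫ z : ℝ × ℝ, F (lp z) / (z.1 ^ 2 + z.2 ^ 2) =
      ∫ w in (Set.univ : Set ℝ) ×ˢ Set.Ioo (-π) π, F w := by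
  rw [← image_lp, integral_image_eq_integral_abs_det_fderiv_smul volume isOpen_cut.measurableSet
    (fun z hz => (hasFDerivAt_lp hz).hasFDerivWithinAt) injOn_lp F,
    ← setIntegral_univ (f := fun z : ℝ × ℝ => F (lp z) / (z.1 ^ 2 + z.2 ^ 2))]
  rw [setIntegral_congr_set (s := Set.univ) (t := cut)]
  · refine setIntegral_congr_fun isOpen_cut.measurableSet fun z hz => ?_
    simp only [smul_eq_mul]
    rw [det_lpD (ne_zero_of_cut hz), abs_of_pos (by have := sq_pos (ne_zero_of_cut hz); positivity)]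
    ring
  · filter_upwards [ae_cut] with z hz
    exact propext ⟨fun _ => hz, fun _ => trivial⟩

/-- the integrand may live on the whole strip if it vanishes near `±π` -/
theorem integral_lp_univ (F : ℝ × ℝ → ℝ) (hF : ∀ w, π ≤ |w.2| → F w = 0) :
    ∫ z : ℝ × ℝ, F (lp z) / (z.1 ^ 2 + z.2 ^ 2) = ∫ w, F w := by
  rw [integral_lp]
  refine setIntegral_eq_integral_of_forall_compl_eq_zero fun w hw => hF w ?_
  simp only [Set.mem_prod, Set.mem_univ, true_and, Set.mem_Ioo, not_and_or, not_lt] at hw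
  rcases hw with h | h
  · exact le_abs.2 (Or.inr (by linarith))
  · exact le_abs.2 (Or.inl h)

/-- a product integrand -/
theorem integral_lp_mul (f g : ℝ → ℝ) (hg : ∀ θ, π ≤ |θ| → g θ = 0) :
    ∫ z : ℝ × ℝ, f (lr z) * g (ar z) / (z.1 ^ 2 + z.2 ^ 2) = (∫ t, f t) * ∫ θ, g θ := by
  have h := integral_lp_univ (fun w => f w.1 * g w.2) fun w hw => by rw [hg _ hw, mul_zero]
  simp only [lp] at h
  rw [h, Measure.volume_eq_prod, integral_prod_mul]

/-! ### the Dirichlet energy -/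

theorem deriv_vanR {a b : ℝ} {η : ℝ → ℝ} (hη : VanR a b η) : VanR a b (deriv η) := by
  intro t ht
  by_contra hne
  have hd : DifferentiableAt ℝ η t := by
    by_contra h
    exact hne (deriv_zero_of_not_differentiableAt h)
  have h0 : η t = 0 := hη t ht
  rcases ht with ht | ht
  · have h1 : HasDerivWithinAt η (deriv η t) (Set.Iic t) t := hd.hasDerivAt.hasDerivWithinAt
    have h2 : HasDerivWithinAt η 0 (Set.Iic t) t :=
      (hasDerivWithinAt_const t (Set.Iic t) (0 : ℝ)).congr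
        (fun s hs => hη s (Or.inl (hs.trans ht))) h0
    exact hne ((uniqueDiffWithinAt_Iic t).eq_deriv _ h1 h2)
  · have h1 : HasDerivWithinAt η (deriv η t) (Set.Ici t) t := hd.hasDerivAt.hasDerivWithinAt
    have h2 : HasDerivWithinAt η 0 (Set.Ici t) t :=
      (hasDerivWithinAt_const t (Set.Ici t) (0 : ℝ)).congr
        (fun s hs => hη s (Or.inr (ht.trans hs))) h0
    exact hne ((uniqueDiffWithinAt_Ici t).eq_deriv _ h1 h2)

theorem deriv_vanE {κ : ℝ} {u : ℝ → ℝ} (hu : VanE κ u) : VanE κ (deriv u) := by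
  have h : VanR (-(π - κ)) (π - κ) u ∨ True := Or.inr trivial
  intro θ hθ
  by_contra hne
  have hd : DifferentiableAt ℝ u θ := by
    by_contra h
    exact hne (deriv_zero_of_not_differentiableAt h)
  have h0 : u θ = 0 := hu θ hθ
  rcases le_total 0 θ with hp | hp
  · rw [abs_of_nonneg hp] at hθ
    have h1 : HasDerivWithinAt u (deriv u θ) (Set.Ici θ) θ := hd.hasDerivAt.hasDerivWithinAt
    have h2 : HasDerivWithinAt u 0 (Set.Ici θ) θ :=
      (hasDerivWithinAt_const θ (Set.Ici θ) (0 : ℝ)).congr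
        (fun s hs => hu s (hθ.trans ((Set.mem_Ici.1 hs).trans (le_abs_self s)))) h0
    exact hne ((uniqueDiffWithinAt_Ici θ).eq_deriv _ h1 h2)
  · rw [abs_of_nonpos hp] at hθ
    have h1 : HasDerivWithinAt u (deriv u θ) (Set.Iic θ) θ := hd.hasDerivAt.hasDerivWithinAt
    have h2 : HasDerivWithinAt u 0 (Set.Iic θ) θ :=
      (hasDerivWithinAt_const θ (Set.Iic θ) (0 : ℝ)).congr
        (fun s hs => hu s (hθ.trans ((neg_le_neg (Set.mem_Iic.1 hs)).trans (neg_le_abs s)))) h0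
    exact hne ((uniqueDiffWithinAt_Iic θ).eq_deriv _ h1 h2)

theorem VanR.compact {a b : ℝ} {η : ℝ → ℝ} (hη : VanR a b η) : HasCompactSupport η :=
  HasCompactSupport.intro (isCompact_Icc (a := a) (b := b)) fun t ht => hη t (by
    rw [Set.mem_Icc, not_and_or, not_le, not_le] at ht
    exact ht.imp le_of_lt le_of_lt)

theorem VanE.compact {κ : ℝ} {u : ℝ → ℝ} (hu : VanE κ u) : HasCompactSupport u :=
  HasCompactSupport.intro (isCompact_Icc (a := -(π - κ)) (b := π - κ)) fun t ht => hu t (by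
    rw [Set.mem_Icc, ← abs_le, not_le] at ht
    exact ht.le)

theorem integrable_sq {f : ℝ → ℝ} (hf : Continuous f) (hc : HasCompactSupport f) :
    Integrable fun t => f t ^ 2 := by
  have h1 : Continuous fun t => f t ^ 2 := by fun_prop
  have h2 : HasCompactSupport fun t => f t ^ 2 :=
    hc.comp_left (g := fun x : ℝ => x ^ 2) (by norm_num)
  exact h1.integrable_of_hasCompactSupport h2

/-- the integrand of the Dirichlet energy of a polar function -/
theorem grad_sq_pol {η u : ℝ → ℝ} {κ a b : ℝ} (hκ : 0 < κ) (hu : VanE κ u) (hη : VanR a b η)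
    (cη : Differentiable ℝ η) (cu : Differentiable ℝ u) (z : ℝ × ℝ) :
    fderiv ℝ (pol η u) z (1, 0) ^ 2 + fderiv ℝ (pol η u) z (0, 1) ^ 2 =
      (deriv η (lr z) ^ 2 * u (ar z) ^ 2 + η (lr z) ^ 2 * deriv u (ar z) ^ 2) /
        (z.1 ^ 2 + z.2 ^ 2) := by
  rw [fderiv_pol hκ hu hη cη cu, fderiv_pol hκ hu hη cη cu]
  by_cases hz : z = 0
  · simp [hz]
  · have := (sq_pos hz).ne'
    field_simp
    ring

theorem Dir_pol {η u : ℝ → ℝ} {κ a b : ℝ} (hκ : 0 < κ) (hu : VanE κ u) (hη : VanR a b η)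
    (cη : ContDiff ℝ 1 η) (cu : ContDiff ℝ 1 u) :
    Dir (pol η u) = (∫ t, deriv η t ^ 2) * (∫ θ, u θ ^ 2) +
      (∫ t, η t ^ 2) * ∫ θ, deriv u θ ^ 2 := by
  have dη := cη.differentiable (by norm_num)
  have du := cu.differentiable (by norm_num)
  have hu' := deriv_vanE hu
  have hη' := deriv_vanR hη
  have i1 := integrable_sq (cη.continuous_deriv_one) hη'.compact
  have i2 := integrable_sq cη.continuous hη.compact
  have i3 := integrable_sq (cu.continuous_deriv_one) hu'.compact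
  have i4 := integrable_sq cu.continuous hu.compact
  have h0 : ∀ w : ℝ × ℝ, π ≤ |w.2| →
      deriv η w.1 ^ 2 * u w.2 ^ 2 + η w.1 ^ 2 * deriv u w.2 ^ 2 = 0 := by
    intro w hw
    have e1 : u w.2 = 0 := hu w.2 (by linarith)
    have e2 : deriv u w.2 = 0 := hu' w.2 (by linarith)
    rw [e1, e2]
    ring
  have h := integral_lp_univ
    (fun w => deriv η w.1 ^ 2 * u w.2 ^ 2 + η w.1 ^ 2 * deriv u w.2 ^ 2) h0
  have h1 : Dir (pol η u) = ∫ z : ℝ × ℝ, (deriv η (lp z).1 ^ 2 * u (lp z).2 ^ 2 +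
      η (lp z).1 ^ 2 * deriv u (lp z).2 ^ 2) / (z.1 ^ 2 + z.2 ^ 2) := by
    unfold Dir
    exact integral_congr_ae (Filter.Eventually.of_forall fun z => grad_sq_pol hκ hu hη dη du z)
  rw [h1, h, Measure.volume_eq_prod, integral_add (i1.mul_prod i4) (i2.mul_prod i3),
    integral_prod_mul (fun t => deriv η t ^ 2) (fun t => u t ^ 2),
    integral_prod_mul (fun t => η t ^ 2) (fun t => deriv u t ^ 2)]

theorem pol_sum {ι : Type*} (s : Finset ι) (η : ℝ → ℝ) (u : ι → ℝ → ℝ) (z : ℝ × ℝ) :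
    pol η (fun θ => ∑ i ∈ s, u i θ) z = ∑ i ∈ s, pol η (u i) z := by
  simp only [pol]
  split_ifs
  · simp
  · rw [Finset.mul_sum]

end Vale.Agent.P159.T1.D.H634
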